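import Vale.Agent.Lib.P038.SatK.Shapes.S6_5_5t
noncomputable section
namespace Vale.Agent.Lib.P038.SatK.I.M2_5
open Vale.Agent.Lib.P038.Sat Vale.Agent.Lib.P038.SatK
def W : Nat := 90
def M : Nat := 1237940039285380274899124223
def GT : Nat := 2601403840364880459486904148800836722399041323219943952528557309942848797754526387942462661247566187647243494989414569519492201881485032926041784236047520773918931554972607935620008634011817610689199170908097101111692622492552249408475612782418119484423916629926947684728875822103381844690673595925244637603347328379421850258293971035877923316666991169242719786352070672547053902735324489735073442291115253643131223004819117016906984185415007319649262764240353414531180178421795982021185688221455344398653776605700521177820892958367413519431673536555310681119463826141130403132764626277678318821126368505310052275969827242455960269105437259757263105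
def h0 : T := (T.l (nat_lit 0))
def H : T := h0
theorem hlast : getB H 0 = 0 := by decide +kernel
end Vale.Agent.Lib.P038.SatK.I.M2_5
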